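import Vale.Agent.P184.Ker

/-! The trace on kernels and the twisting argument. -/

namespace Vale.Agent.P184

open scoped ENNReal
open Filter Topology

variable {G : Type} [Group G] {q : ℕ} {g : G}

/-- The conjugacy class. -/
abbrev Cl (g : G) : Type := {x // IsConj g x}

theorem exists_rep (s : Cl g) : ∃ r : G, r⁻¹ * (g * r) = s := by
  obtain ⟨c, hc⟩ := isConj_iff.1 s.2
  exact ⟨c⁻¹, by rw [inv_inv, ← mul_assoc, hc]⟩

/-- Representatives. -/
noncomputable def rep (s : Cl g) : G := (exists_rep s).choose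

theorem rep_spec (s : Cl g) : (rep s)⁻¹ * (g * rep s) = s := (exists_rep s).choose_spec

/-- The class of a point. -/
def cls (g y : G) : Cl g := ⟨y⁻¹ * (g * y), isConj_iff.2 ⟨y⁻¹, by simp [mul_assoc]⟩⟩

theorem comm_rep (y : G) : Commute (y * (rep (cls g y))⁻¹) g := by
  have h : (rep (cls g y))⁻¹ * (g * rep (cls g y)) = y⁻¹ * (g * y) := rep_spec _
  generalize rep (cls g y) = r at h
  show y * r⁻¹ * g = g * (y * r⁻¹)
  calc y * r⁻¹ * g = y * (r⁻¹ * (g * r)) * r⁻¹ := by group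
    _ = g * (y * r⁻¹) := by rw [h]; group

theorem cls_rep {c : G} (hc : Commute c g) (s : Cl g) : cls g (c * rep s) = s := by
  refine Subtype.ext ?_
  rw [← rep_spec s]
  show (c * rep s)⁻¹ * (g * (c * rep s)) = _
  rw [← mul_assoc g c, ← hc.eq]
  group

/-- Orbit decomposition. -/
noncomputable def dec (q : ℕ) (g : G) : {c // Commute c g} × (Fin q × Cl g) ≃ Fin q × G where
  toFun p := (p.2.1, p.1 * rep p.2.2)
  invFun y := (⟨y.2 * (rep (cls g y.2))⁻¹, comm_rep _⟩, y.1, cls g y.2)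
  left_inv p := by
    obtain ⟨c, i, s⟩ := p
    refine Prod.ext (Subtype.ext ?_) (Prod.ext rfl (cls_rep c.2 s))
    show c * rep s * (rep (cls g (c * rep s)))⁻¹ = c
    rw [cls_rep c.2 s, mul_inv_cancel_right]
  right_inv y := Prod.ext rfl (inv_mul_cancel_right _ _)

/-- The swap. -/
def swp (Y : Type) (g : G) : Y × ({c // Commute c g} × Y) ≃ Y × ({c // Commute c g} × Y) where
  toFun p := (p.2.2, ⟨p.2.1.1⁻¹ * g, p.2.1.2.inv_left.mul_left (Commute.refl g)⟩, p.1)
  invFun p := (p.2.2, ⟨g * p.2.1.1⁻¹, (Commute.refl g).mul_left p.2.1.2.inv_left⟩, p.1)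
  left_inv p := Prod.ext rfl (Prod.ext (Subtype.ext (by simp)) rfl)
  right_inv p := Prod.ext rfl (Prod.ext (Subtype.ext (by simp)) rfl)

/-- The trace. -/
noncomputable def tr (g : G) (k : Kn q G) : ℂ :=
  ∑' y : Fin q × Cl g, k (y.1, rep y.2) (y.1, g * rep y.2)

theorem tr_e {a : Fin q × Cl g → ℝ≥0∞} {K : G → ℝ≥0∞} (h : ∀ y, a y ≤ K y.2) :
    ∑' y, a y ≤ q * ∑' s, K s := by
  refine (ENNReal.tsum_le_tsum h).trans ?_
  rw [tsum_snd fun s : Cl g => K s]
  gcongr
  exact ENNReal.tsum_comp_le_tsum_of_injective Subtype.val_injective K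

theorem Dom.tr {k : Kn q G} {K : G → ℝ≥0∞} (hk : Dom k K) :
    ∑' y : Fin q × Cl g, ‖k (y.1, rep y.2) (y.1, g * rep y.2)‖ₑ ≤ q * ∑' s, K s :=
  tr_e fun y => (hk _ _).trans (le_of_eq (congrArg K (rep_spec _)))

theorem B.trs (k : B q g) :
    Summable fun y : Fin q × Cl g => k.1 (y.1, rep y.2) (y.1, g * rep y.2) := by
  obtain ⟨K, a, b⟩ := k.2.1
  exact Summable.of_enorm (ne_top_of_le_ne_top
    (ENNReal.mul_ne_top (ENNReal.natCast_ne_top q) a) b.tr)

theorem tr_mul (k l : B q g) : tr g (k * l).1 =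
    ∑' p : (Fin q × Cl g) × ({c // Commute c g} × (Fin q × Cl g)),
      k.1 (p.1.1, rep p.1.2) (p.2.2.1, p.2.1 * rep p.2.2.2) *
        l.1 (p.2.2.1, p.2.1 * rep p.2.2.2) (p.1.1, g * rep p.1.2) := by
  obtain ⟨K, a, b⟩ := k.2.1
  obtain ⟨L, c, d⟩ := l.2.1
  have hs : Summable fun p : (Fin q × Cl g) × (Fin q × G) =>
      k.1 (p.1.1, rep p.1.2) p.2 * l.1 p.2 (p.1.1, g * rep p.1.2) := by
    refine Summable.of_enorm (ne_top_of_le_ne_top
      (ENNReal.mul_ne_top (ENNReal.natCast_ne_top q) (cv_fin (q := q) a c)) ?_)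
    rw [ENNReal.tsum_prod']
    exact tr_e fun y => (b.e d (y.1, rep y.2) (y.1, g * rep y.2)).trans
      (le_of_eq (congrArg _ (rep_spec _)))
  exact hs.tsum_prod.symm.trans (((Equiv.refl _).prodCongr (dec q g)).tsum_eq _).symm

theorem tr_comm (k l : B q g) : tr g (k * l).1 = tr g (l * k).1 := by
  rw [tr_mul, tr_mul, ← (swp (Fin q × Cl g) g).tsum_eq]
  refine tsum_congr ?_
  rintro ⟨⟨j, s'⟩, ⟨c, hc⟩, i, s⟩
  show k.1 (i, rep s) (j, c⁻¹ * g * rep s') * l.1 (j, c⁻¹ * g * rep s') (i, g * rep s) =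
    l.1 (j, rep s') (i, c * rep s) * k.1 (i, c * rep s) (j, g * rep s')
  rw [mul_comm, ← k.2.2 c hc i j (rep s),
    ← l.2.2 (c⁻¹ * g) (hc.inv_left.mul_left (Commute.refl g)) j i (rep s') (c * rep s)]
  have e1 : c⁻¹ * g * (c * rep s) = g * rep s := by
    rw [mul_assoc, ← mul_assoc g c, ← hc.eq]
    group
  have e2 : c * (c⁻¹ * g * rep s') = g * rep s' := by group
  rw [e1, e2]

/-- The trace as an additive map. -/
noncomputable def trH (q : ℕ) (g : G) : B q g →+ ℂ :=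
  AddMonoidHom.mk' (fun k => tr g k.1) fun k l => (k.trs.tsum_add l.trs)

theorem tr_eq {e f : B q g} (he : e * e = e) (hf : f * f = f) {K : G → ℝ≥0∞}
    (h : Dom (e - f).1 K) (hK : q * ∑' s, K s < 1) : tr g e.1 = tr g f.1 := by
  have h1 : ∀ n : ℕ, ‖trH q g (e - f)‖ₑ ≤ (q * ∑' s, K s) ^ (2 * n + 1) := fun n => by
    rw [← odd_pow (trH q g) tr_comm he hf n]
    obtain ⟨L, a, b⟩ := (e - f).pow h (2 * n)
    refine enorm_tsum_le_tsum_enorm.trans (a.tr.trans (le_of_eq ?_))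
    rw [b]
    ring
  have h2 : Tendsto (fun n : ℕ => (q * ∑' s, K s) ^ (2 * n + 1)) atTop (𝓝 0) :=
    (ENNReal.tendsto_pow_atTop_nhds_zero_of_lt_one hK).comp
      (tendsto_atTop_mono (f := id) (fun n => by simp only [id]; omega) tendsto_id)
  have h3 := ge_of_tendsto' h2 h1
  rw [nonpos_iff_eq_zero, enorm_eq_zero, map_sub, sub_eq_zero] at h3
  exact h3

/-- The twisted kernel of a matrix. -/
noncomputable def tw (e : Fin q → Fin q → G → ℂ) (φ : G → ℝ) (t : ℝ) : Kn q G := fun x y =>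
  Complex.exp (Complex.I * (t * (φ x.2 - φ y.2) : ℝ)) * e x.1 y.1 (x.2⁻¹ * y.2)

theorem core {φ : G → ℝ} (hφ : Pot g φ) {e : Fin q → Fin q → G → ℂ} (he : IsIdem e) :
    tau e g = 0 := by
  obtain ⟨h1, h2, h3⟩ := hφ
  choose M hM using h1
  have M0 : ∀ s, 0 ≤ M s := fun s => (abs_nonneg _).trans (hM s 1)
  let E : G → ℝ := fun s => ∑ i, ∑ j, ‖e i j s‖
  have E0 : ∀ s, 0 ≤ E s := fun s => by positivity
  have Es : Summable E := summable_sum fun i _ => summable_sum fun j _ => he.l1 i j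
  have Ele : ∀ i j s, ‖e i j s‖ ≤ E s := fun i j s =>
    (Finset.single_le_sum (f := fun j => ‖e i j s‖) (fun _ _ => norm_nonneg _)
      (Finset.mem_univ j)).trans (Finset.single_le_sum (f := fun i => ∑ j, ‖e i j s‖)
        (fun _ _ => by positivity) (Finset.mem_univ i))
  have ex1 : ∀ a : ℝ, ‖Complex.exp (Complex.I * a)‖ = 1 := Complex.norm_exp_I_mul_ofReal
  have gd : ∀ t, Good g (tw e φ t) := fun t => by
    refine ⟨⟨fun s => ENNReal.ofReal (E s), ?_, fun x y => ?_⟩, fun c hc i j x y => ?_⟩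
    · rw [← ENNReal.ofReal_tsum_of_nonneg E0 Es]
      exact ENNReal.ofReal_ne_top
    · rw [← ofReal_norm]
      refine ENNReal.ofReal_le_ofReal ?_
      unfold tw
      rw [norm_mul, ex1, one_mul]
      exact Ele _ _ _
    · unfold tw
      simp only [h2 c hc, mul_inv_rev, mul_assoc, inv_mul_cancel_left]
  let k : ℝ → B q g := fun t => ⟨tw e φ t, gd t⟩
  have id0 : ∀ x z : Fin q × G,
      ∑' y : Fin q × G, e x.1 y.1 (x.2⁻¹ * y.2) * e y.1 z.1 (y.2⁻¹ * z.2) =
        e x.1 z.1 (x.2⁻¹ * z.2) := fun x z => by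
    have hs : Summable fun y : Fin q × G => e x.1 y.1 (x.2⁻¹ * y.2) * e y.1 z.1 (y.2⁻¹ * z.2) :=
      ((k 0).sm (k 0) x z).congr fun y => by simp [k, tw]
    rw [hs.tsum_prod, tsum_fintype, ← he.idem x.1 z.1]
    refine Finset.sum_congr rfl fun j _ => ?_
    rw [← (Equiv.mulLeft x.2).tsum_eq]
    exact tsum_congr fun u => by simp [mul_assoc]
  have idem : ∀ t, k t * k t = k t := fun t => Subtype.ext (funext fun x => funext fun z => by
    show ∑' y, tw e φ t x y * tw e φ t y z = tw e φ t x z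
    unfold tw
    rw [← id0 x z, ← tsum_mul_left]
    refine tsum_congr fun y => ?_
    rw [mul_mul_mul_comm, ← Complex.exp_add]
    congr 2
    push_cast
    ring)
  have trk : ∀ t, tr g (k t).1 = Complex.exp (Complex.I * (t * (φ 1 - φ g) : ℝ)) * tau e g :=
    fun t => by
    have hs : Summable fun y : Fin q × Cl g => e y.1 y.1 y.2 :=
      (k 0).trs.congr fun y => by simp [k, tw, rep_spec]
    have e0 : tau e g = ∑' y : Fin q × Cl g, e y.1 y.1 y.2 := by
      rw [hs.tsum_prod, tsum_fintype, tau, Summable.tsum_finsetSum]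
      exact fun i _ => ((he.l1 i i).of_norm).subtype _
    rw [e0, ← tsum_mul_left]
    refine tsum_congr fun y => ?_
    have e1 : φ (rep y.2) - φ (g * rep y.2) = φ 1 - φ g := by
      have := h2 g (Commute.refl g) (rep y.2) 1
      rw [mul_one] at this
      linarith
    show Complex.exp (Complex.I * (t * (φ (rep y.2) - φ (g * rep y.2)) : ℝ)) *
      e y.1 y.1 ((rep y.2)⁻¹ * (g * rep y.2)) = _
    rw [e1, rep_spec]
  let f : ℝ → G → ℝ := fun t s => min 2 (|t| * M s) * E s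
  have f0 : ∀ t s, 0 ≤ f t s := fun t s =>
    mul_nonneg (le_min zero_le_two (mul_nonneg (abs_nonneg _) (M0 s))) (E0 s)
  have f2 : ∀ t s, f t s ≤ 2 * E s := fun t s =>
    mul_le_mul_of_nonneg_right (min_le_left _ _) (E0 s)
  have fs : ∀ t, Summable (f t) := fun t => (Es.mul_left 2).of_nonneg_of_le (f0 t) (f2 t)
  have lim : Tendsto (fun t => ∑' s, f t s) (𝓝 0) (𝓝 (∑' _ : G, (0 : ℝ))) := by
    refine tendsto_tsum_of_dominated_convergence (Es.mul_left 2) (fun s => ?_)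
      (Eventually.of_forall fun t s => by rw [Real.norm_of_nonneg (f0 t s)]; exact f2 t s)
    have : Continuous fun t : ℝ => min 2 (|t| * M s) * E s := by fun_prop
    simpa using this.tendsto 0
  rw [tsum_zero] at lim
  have dom : ∀ t, Dom (k t - k 0).1 fun s => ENNReal.ofReal (f t s) := fun t x y => by
    rw [← ofReal_norm]
    refine ENNReal.ofReal_le_ofReal ?_
    have e1 : (k t - k 0).1 x y = (Complex.exp (Complex.I * (t * (φ x.2 - φ y.2) : ℝ)) - 1) *
        e x.1 y.1 (x.2⁻¹ * y.2) := by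
      rw [sub_eq_add_neg]
      show tw e φ t x y + -tw e φ 0 x y = _
      simp only [tw, zero_mul, Complex.ofReal_zero, mul_zero, Complex.exp_zero]
      ring
    rw [e1, norm_mul]
    refine mul_le_mul (le_min ?_ ?_) (Ele _ _ _) (norm_nonneg _)
      (le_min zero_le_two (mul_nonneg (abs_nonneg _) (M0 _)))
    · refine (norm_sub_le _ _).trans ?_
      rw [ex1, norm_one]
      norm_num
    · refine Real.norm_exp_I_mul_ofReal_sub_one_le.trans ?_
      rw [Real.norm_eq_abs, abs_mul]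
      have := hM (x.2⁻¹ * y.2) x.2
      rw [mul_inv_cancel_left] at this
      gcongr
  have a1 : ∀ᶠ t in 𝓝 (0 : ℝ), (q : ℝ) * ∑' s, f t s < 1 :=
    (lim.const_mul (q : ℝ)).eventually (gt_mem_nhds (by simp))
  have a2 : ∀ᶠ t in 𝓝 (0 : ℝ), |t * (φ 1 - φ g)| < 1 := by
    have : Continuous fun t : ℝ => |t * (φ 1 - φ g)| := by fun_prop
    exact (this.tendsto 0).eventually (gt_mem_nhds (by simp))
  obtain ⟨t, ⟨b1, b2⟩, b3⟩ := (((a1.and a2).filter_mono nhdsWithin_le_nhds).and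
    (self_mem_nhdsWithin : {(0 : ℝ)}ᶜ ∈ 𝓝[≠] (0 : ℝ))).exists
  have c1 := tr_eq (idem t) (idem 0) (dom t) (by
    rw [← ENNReal.ofReal_tsum_of_nonneg (f0 t) (fs t), ← ENNReal.ofReal_natCast,
      ← ENNReal.ofReal_mul (Nat.cast_nonneg _)]
    exact ENNReal.ofReal_lt_one.2 b1)
  rw [trk, trk, zero_mul, Complex.ofReal_zero, mul_zero, Complex.exp_zero] at c1
  by_contra hne
  have c2 := mul_right_cancel₀ hne c1
  have c3 : Real.sin (t * (φ 1 - φ g)) = 0 := by
    have := congrArg Complex.im c2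
    rwa [mul_comm Complex.I, Complex.exp_ofReal_mul_I_im, Complex.one_im] at this
  have c4 := abs_lt.1 b2
  have c5 := Real.pi_gt_three
  rw [Real.sin_eq_zero_iff_of_lt_of_lt (by linarith) (by linarith)] at c3
  rcases mul_eq_zero.1 c3 with h | h
  · exact b3 h
  · exact h3 (by linarith)

end Vale.Agent.P184
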