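import Mathlib

/-! Idempotent matrices over the group algebra of summable functions, and their traces. -/

namespace Vale.Agent.P184

open scoped ENNReal

variable {G : Type} [Group G] {q : ℕ}

/-- `e` is an idempotent `q × q` matrix over `ℓ¹(G)` with convolution. -/
structure IsIdem (e : Fin q → Fin q → G → ℂ) : Prop where
  l1 : ∀ i j, Summable fun x => ‖e i j x‖
  idem : ∀ i j x, ∑ k, ∑' h, e i k h * e k j (h⁻¹ * x) = e i j x

/-- The Hattori-Stallings coefficient at the conjugacy class of `g`. -/
noncomputable def tau (e : Fin q → Fin q → G → ℂ) (g : G) : ℂ :=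
  ∑' x : {x // IsConj g x}, ∑ i, e i i x

/-- Subadditive real functions, for example word lengths or displacements. -/
def Subadd (l : G → ℝ) : Prop := ∀ x y, l (x * y) ≤ l x + l y

/-- The centralizer of `g` has an additive real character that does not vanish at `g` and is
bounded above by a subadditive function on the whole group. -/
def HasChar (g : G) : Prop :=
  ∃ l χ : G → ℝ, Subadd l ∧ χ g ≠ 0 ∧
    (∀ c d, Commute c g → Commute d g → χ (c * d) = χ c + χ d) ∧ ∀ c, Commute c g → χ c ≤ l c

/-- The powers of `g` grow linearly for some nonnegative subadditive function on `G`. -/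
def Undistorted (g : G) : Prop :=
  ∃ (l : G → ℝ) (a : ℝ), Subadd l ∧ (∀ x, 0 ≤ l x) ∧ 0 < a ∧ ∀ n : ℕ, a * n ≤ l (g ^ n)

/-- The bounded real functions on `H`. -/
abbrev Linf (H : Type) : Type := lp (fun _ : H => ℝ) ∞

/-- `M` is normalized, positive and left invariant. -/
def IsInvMean {H : Type} [Group H] (M : Linf H → ℝ) : Prop :=
  (∀ φ : Linf H, (∀ x, φ x = 1) → M φ = 1) ∧ (∀ φ : Linf H, (∀ x, 0 ≤ φ x) → 0 ≤ M φ) ∧
    ∀ (h : H) (φ ψ : Linf H), (∀ x, ψ x = φ (h * x)) → M ψ = M φ

/-- A group is amenable if the bounded real functions carry a left invariant mean. -/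
def IsAmenable (H : Type) [Group H] : Prop :=
  ∃ M : Linf H →ₗ[ℝ] ℝ, IsInvMean M

end Vale.Agent.P184
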