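import Vale.Agent.P184.Work

/-! The ring of convolution dominated invariant kernels. -/

namespace Vale.Agent.P184

open scoped ENNReal

variable {G : Type} [Group G] {q : ℕ}

/-- Weighted convolution. -/
noncomputable def cv (q : ℕ) (K L : G → ℝ≥0∞) (s : G) : ℝ≥0∞ := q * ∑' u, K u * L (u⁻¹ * s)

theorem tsum_cv (K L : G → ℝ≥0∞) : ∑' s, cv q K L s = q * ((∑' s, K s) * ∑' s, L s) := by
  unfold cv
  rw [ENNReal.tsum_mul_left, ENNReal.tsum_comm, ← ENNReal.tsum_mul_right]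
  congr 1
  refine tsum_congr fun u => ?_
  rw [ENNReal.tsum_mul_left]
  congr 1
  exact (Equiv.mulLeft u⁻¹).tsum_eq L

theorem cv_fin {K L : G → ℝ≥0∞} (hK : ∑' s, K s ≠ ∞) (hL : ∑' s, L s ≠ ∞) :
    ∑' s, cv q K L s ≠ ∞ := by
  rw [tsum_cv]
  exact ENNReal.mul_ne_top (ENNReal.natCast_ne_top q) (ENNReal.mul_ne_top hK hL)

theorem tsum_snd {Y : Type} (F : Y → ℝ≥0∞) : ∑' y : Fin q × Y, F y.2 = q * ∑' y, F y := by
  rw [ENNReal.tsum_prod']
  simp

theorem e1 {a b : Fin q × G → ℝ≥0∞} {K L : G → ℝ≥0∞} {x z : G} (ha : ∀ y, a y ≤ K (x⁻¹ * y.2))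
    (hb : ∀ y, b y ≤ L (y.2⁻¹ * z)) : ∑' y, a y * b y ≤ cv q K L (x⁻¹ * z) := by
  refine (ENNReal.tsum_le_tsum fun y => mul_le_mul' (ha y) (hb y)).trans (le_of_eq ?_)
  rw [tsum_snd fun u => K (x⁻¹ * u) * L (u⁻¹ * z), cv]
  congr 1
  rw [← (Equiv.mulLeft x).tsum_eq]
  exact tsum_congr fun u => by simp [mul_assoc]

/-- Kernels. -/
abbrev Kn (q : ℕ) (G : Type) : Type := Fin q × G → Fin q × G → ℂ

/-- Domination. -/
def Dom (k : Kn q G) (K : G → ℝ≥0∞) : Prop := ∀ x y, ‖k x y‖ₑ ≤ K (x.2⁻¹ * y.2)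

/-- Invariance. -/
def Inv (g : G) (k : Kn q G) : Prop :=
  ∀ c, Commute c g → ∀ i j x y, k (i, c * x) (j, c * y) = k (i, x) (j, y)

/-- Product of kernels. -/
noncomputable def km (k l : Kn q G) : Kn q G := fun x z => ∑' y, k x y * l y z

theorem Dom.e {k l : Kn q G} {K L : G → ℝ≥0∞} (hk : Dom k K) (hl : Dom l L) (x z : Fin q × G) :
    ∑' y, ‖k x y * l y z‖ₑ ≤ cv q K L (x.2⁻¹ * z.2) := by
  simp only [enorm_mul]
  exact e1 (fun y => hk x y) fun y => hl y z

theorem Dom.km {k l : Kn q G} {K L : G → ℝ≥0∞} (hk : Dom k K) (hl : Dom l L) :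
    Dom (km k l) (cv q K L) := fun x z => enorm_tsum_le_tsum_enorm.trans (hk.e hl x z)

theorem Dom.sm {k l : Kn q G} {K L : G → ℝ≥0∞} (hk : Dom k K) (hl : Dom l L)
    (hK : ∑' s, K s ≠ ∞) (hL : ∑' s, L s ≠ ∞) (x z : Fin q × G) :
    Summable fun y => k x y * l y z :=
  Summable.of_enorm (ne_top_of_le_ne_top (cv_fin hK hL)
    ((hk.e hl x z).trans (ENNReal.le_tsum _)))

theorem km_assoc {k l m : Kn q G} {K L M : G → ℝ≥0∞} (hk : Dom k K) (hl : Dom l L) (hm : Dom m M)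
    (hK : ∑' s, K s ≠ ∞) (hL : ∑' s, L s ≠ ∞) (hM : ∑' s, M s ≠ ∞) :
    km (km k l) m = km k (km l m) := by
  funext x w
  have hs : Summable (Function.uncurry fun z y : Fin q × G => k x y * l y z * m z w) := by
    refine Summable.of_enorm (ne_top_of_le_ne_top (cv_fin (q := q) (cv_fin (q := q) hK hL) hM)
      (le_trans ?_ (ENNReal.le_tsum (x.2⁻¹ * w.2))))
    rw [ENNReal.tsum_prod']
    refine le_trans (le_of_eq ?_) (e1 (a := fun z => ∑' y, ‖k x y * l y z‖ₑ)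
      (b := fun z => ‖m z w‖ₑ) (fun z => hk.e hl x z) fun z => hm z w)
    refine tsum_congr fun z => ?_
    rw [← ENNReal.tsum_mul_right]
    exact tsum_congr fun y => enorm_mul _ _
  unfold km
  simp only [← tsum_mul_left, ← tsum_mul_right]
  rw [← hs.tsum_comm]
  simp only [mul_assoc]

/-- The dominated invariant kernels. -/
def Good (g : G) (k : Kn q G) : Prop := (∃ K, ∑' s, K s ≠ ∞ ∧ Dom k K) ∧ Inv g k

/-- The ring of kernels. -/
def B (q : ℕ) (g : G) : Type := {k : Kn q G // Good g k}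

variable {g : G}

instance : Add (B q g) := ⟨fun k l => ⟨k.1 + l.1, by
  obtain ⟨K, a, b⟩ := k.2.1
  obtain ⟨L, c, d⟩ := l.2.1
  refine ⟨⟨fun s => K s + L s, ?_, fun x y => (enorm_add_le _ _).trans (add_le_add (b x y) (d x y))⟩,
    fun c hc i j x y => ?_⟩
  · rw [ENNReal.tsum_add]
    exact ENNReal.add_ne_top.2 ⟨a, c⟩
  · simp only [Pi.add_apply, k.2.2 c hc, l.2.2 c hc]⟩⟩

instance : Neg (B q g) := ⟨fun k => ⟨-k.1, by
  obtain ⟨K, a, b⟩ := k.2.1
  refine ⟨⟨K, a, fun x y => ?_⟩, fun c hc i j x y => ?_⟩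
  · simpa using b x y
  · simp only [Pi.neg_apply, k.2.2 c hc]⟩⟩

instance : Zero (B q g) := ⟨⟨0, ⟨0, by simp, fun x y => by simp⟩, fun _ _ _ _ _ _ => rfl⟩⟩

open Classical in
noncomputable instance : One (B q g) := ⟨⟨fun x y => if x = y then 1 else 0,
  ⟨fun s => if s = 1 then 1 else 0, by simp, fun x y => by
    by_cases h : x = y
    · simp [h]
    · simp [h]⟩, fun c _ i j x y => by simp⟩⟩

noncomputable instance : Mul (B q g) := ⟨fun k l => ⟨km k.1 l.1, by
  obtain ⟨K, a, b⟩ := k.2.1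
  obtain ⟨L, c, d⟩ := l.2.1
  refine ⟨⟨_, cv_fin a c, b.km d⟩, fun c hc i j x y => ?_⟩
  unfold km
  rw [← ((Equiv.refl (Fin q)).prodCongr (Equiv.mulLeft c)).tsum_eq]
  exact tsum_congr fun z => congrArg₂ (· * ·) (k.2.2 c hc i z.1 x z.2) (l.2.2 c hc z.1 j z.2 y)⟩⟩

theorem B.sm (k l : B q g) (x z : Fin q × G) : Summable fun y => k.1 x y * l.1 y z := by
  obtain ⟨K, a, b⟩ := k.2.1
  obtain ⟨L, c, d⟩ := l.2.1
  exact b.sm d a c x z

open Classical in
noncomputable instance : Ring (B q g) := Ring.ofMinimalAxioms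
  (fun a b c => Subtype.ext (add_assoc a.1 b.1 c.1)) (fun a => Subtype.ext (zero_add a.1))
  (fun a => Subtype.ext (neg_add_cancel a.1))
  (fun k l m => Subtype.ext (by
    obtain ⟨K, a, b⟩ := k.2.1
    obtain ⟨L, c, d⟩ := l.2.1
    obtain ⟨M, e, f⟩ := m.2.1
    exact km_assoc b d f a c e))
  (fun k => Subtype.ext (funext fun x => funext fun z => by
    show ∑' y, (if x = y then 1 else 0) * k.1 y z = k.1 x z
    rw [tsum_eq_single x fun y hy => by simp [hy.symm]]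
    simp))
  (fun k => Subtype.ext (funext fun x => funext fun z => by
    show ∑' y, k.1 x y * (if y = z then 1 else 0) = k.1 x z
    rw [tsum_eq_single z fun y hy => by simp [hy]]
    simp))
  (fun k l m => Subtype.ext (funext fun x => funext fun z => by
    show ∑' y, k.1 x y * (l.1 y z + m.1 y z) = ∑' y, k.1 x y * l.1 y z + ∑' y, k.1 x y * m.1 y z
    rw [← (k.sm l x z).tsum_add (k.sm m x z)]
    simp only [mul_add]))
  (fun k l m => Subtype.ext (funext fun x => funext fun z => by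
    show ∑' y, (k.1 x y + l.1 x y) * m.1 y z = ∑' y, k.1 x y * m.1 y z + ∑' y, l.1 x y * m.1 y z
    rw [← (k.sm m x z).tsum_add (l.sm m x z)]
    simp only [add_mul]))

theorem B.pow (d : B q g) {K : G → ℝ≥0∞} (h : Dom d.1 K) (n : ℕ) :
    ∃ L, Dom (d ^ (n + 1)).1 L ∧ ∑' s, L s = (q * ∑' s, K s) ^ n * ∑' s, K s := by
  induction n with
  | zero => exact ⟨K, by rw [zero_add, pow_one]; exact h, by simp⟩
  | succ n ih =>
    obtain ⟨L, a, b⟩ := ih
    refine ⟨cv q L K, by rw [pow_succ]; exact a.km h, ?_⟩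
    rw [tsum_cv, b]
    ring

theorem odd_pow {R : Type} [Ring R] (T : R →+ ℂ) (hT : ∀ a b, T (a * b) = T (b * a)) {e f : R}
    (he : e * e = e) (hf : f * f = f) (n : ℕ) : T ((e - f) ^ (2 * n + 1)) = T (e - f) := by
  have he' : ∀ x, e * (e * x) = e * x := fun x => by rw [← mul_assoc, he]
  have hf' : ∀ x, f * (f * x) = f * x := fun x => by rw [← mul_assoc, hf]
  have c1 : Commute e ((e - f) ^ 2) := by
    show e * (e - f) ^ 2 = (e - f) ^ 2 * e
    simp only [sq, mul_sub, sub_mul, mul_assoc, he, hf, he', hf']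
    abel
  have c2 : Commute f ((e - f) ^ 2) := by
    show f * (e - f) ^ 2 = (e - f) ^ 2 * f
    simp only [sq, mul_sub, sub_mul, mul_assoc, he, hf, he', hf']
    abel
  induction n with
  | zero => simp
  | succ n ih =>
    obtain ⟨z, hz⟩ : ∃ z, z = ((e - f) ^ 2) ^ n := ⟨_, rfl⟩
    have d1 : e * z = z * e := by rw [hz]; exact (c1.pow_right n).eq
    have d2 : f * z = z * f := by rw [hz]; exact (c2.pow_right n).eq
    have e1 : (e - f) ^ (2 * (n + 1) + 1) =
        z * (e - f) - z * (e * f) * e + z * (f * e) * f := by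
      rw [show 2 * (n + 1) + 1 = 2 * n + 3 by ring, pow_add, pow_mul, ← hz]
      simp only [pow_succ, pow_zero, one_mul, mul_sub, sub_mul, mul_assoc, he, hf, he', hf']
      abel
    have e2 : T (z * (e * f) * e) = T (z * (e * f)) := by
      rw [hT, ← mul_assoc, d1, mul_assoc, he']
    have e3 : T (z * (f * e) * f) = T (z * (e * f)) := by
      rw [hT, ← mul_assoc, d2, mul_assoc, hf', ← mul_assoc, ← d2, mul_assoc, hT, mul_assoc]
    rw [e1, map_add, map_sub, e2, e3, ← ih, pow_add, pow_mul, ← hz, pow_one]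
    ring

end Vale.Agent.P184
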