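import Vale.Agent.P184.Work

/-! Potentials from characters and from invariant means. -/

namespace Vale.Agent.P184

open scoped ENNReal

variable {G : Type} [Group G]

theorem inf_pot {H : Type} [Group H] (π : H →* G) {l : G → ℝ} (hl : Subadd l) {χ : H → ℝ}
    (hχ : ∀ c d, χ (c * d) = χ c + χ d) (hle : ∀ c, χ c ≤ l (π c)) :
    ∃ φ : G → ℝ, (∀ s x, |φ x - φ (x * s)| ≤ |l s| + |l s⁻¹|) ∧
      ∀ d x, φ (π d * x) = χ d + φ x := by
  have h1 : χ 1 = 0 := by
    have := hχ 1 1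
    rw [one_mul] at this
    linarith
  have hinv : ∀ c, χ c⁻¹ = -χ c := fun c => by
    have := hχ c c⁻¹
    rw [mul_inv_cancel, h1] at this
    linarith
  have hb : ∀ x, BddBelow (Set.range fun c : H => χ c + l ((π c)⁻¹ * x)) := fun x => by
    refine ⟨-l x⁻¹, ?_⟩
    rintro _ ⟨c, rfl⟩
    have a1 := hle c⁻¹
    have a2 := hl ((π c)⁻¹ * x) x⁻¹
    rw [mul_inv_cancel_right] at a2
    rw [hinv, map_inv] at a1
    dsimp only
    linarith
  let φ : G → ℝ := fun x => ⨅ c : H, (χ c + l ((π c)⁻¹ * x))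
  have hφ : ∀ x c, φ x ≤ χ c + l ((π c)⁻¹ * x) := fun x c => ciInf_le (hb x) c
  have hφ' : ∀ x r, (∀ c, r ≤ χ c + l ((π c)⁻¹ * x)) → r ≤ φ x := fun x r h => le_ciInf h
  have hr : ∀ x s, φ (x * s) ≤ φ x + l s := fun x s => by
    have : φ (x * s) - l s ≤ φ x := hφ' x _ fun c => by
      have a1 := hφ (x * s) c
      have a2 := hl ((π c)⁻¹ * x) s
      rw [mul_assoc] at a2
      linarith
    linarith
  have he : ∀ d x, φ (π d * x) ≤ χ d + φ x := fun d x => by
    have : φ (π d * x) - χ d ≤ φ x := hφ' x _ fun c => by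
      have a1 := hφ (π d * x) (d * c)
      rw [hχ, map_mul, mul_inv_rev, mul_assoc, inv_mul_cancel_left] at a1
      linarith
    linarith
  refine ⟨φ, fun s x => ?_, fun d x => ?_⟩
  · have a1 := hr x s
    have a2 := hr (x * s) s⁻¹
    rw [mul_inv_cancel_right] at a2
    have a3 := le_abs_self (l s)
    have a4 := le_abs_self (l s⁻¹)
    have a5 := abs_nonneg (l s)
    have a6 := abs_nonneg (l s⁻¹)
    rw [abs_le]
    constructor <;> linarith
  · have a1 := he d x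
    have a2 := he d⁻¹ (π d * x)
    rw [map_inv, inv_mul_cancel_left, hinv] at a2
    linarith

theorem pot_char {g : G} (h : HasChar g) : ∃ φ, Pot g φ := by
  obtain ⟨l, χ, hl, hg, hχ, hle⟩ := h
  have hc : ∀ c : G, c ∈ Subgroup.centralizer ({g} : Set G) ↔ Commute c g := fun c => by
    rw [Subgroup.mem_centralizer_singleton_iff]
    rfl
  obtain ⟨φ, h1, h2⟩ := inf_pot (Subgroup.centralizer ({g} : Set G)).subtype hl
    (χ := fun c => χ c) (fun c d => hχ c d ((hc _).1 c.2) ((hc _).1 d.2))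
    (fun c => hle c ((hc _).1 c.2))
  refine ⟨φ, fun s => ⟨_, h1 s⟩, fun c hcg x y => ?_, fun e => hg ?_⟩
  · have a1 := h2 ⟨c, (hc _).2 hcg⟩ x
    have a2 := h2 ⟨c, (hc _).2 hcg⟩ y
    simp only [Subgroup.coe_subtype] at a1 a2
    linarith
  · have a1 := h2 ⟨g, (hc _).2 (Commute.refl g)⟩ 1
    simp only [Subgroup.coe_subtype, mul_one] at a1
    linarith

/-- Bounded functions as elements of the sequence space. -/
noncomputable def bd {H : Type} (f : H → ℝ) (B : ℝ) (hf : ∀ c, |f c| ≤ B) :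
    lp (fun _ : H => ℝ) ∞ :=
  ⟨f, memℓp_infty ⟨B, by
    rintro _ ⟨c, rfl⟩
    exact hf c⟩⟩

theorem bd_apply {H : Type} (f : H → ℝ) (B : ℝ) (hf : ∀ c, |f c| ≤ B) (c : H) :
    bd f B hf c = f c := rfl

theorem mean_const {H : Type} {M : lp (fun _ : H => ℝ) ∞ →ₗ[ℝ] ℝ}
    (h1 : ∀ φ, (∀ x, φ x = 1) → M φ = 1) (ψ : lp (fun _ : H => ℝ) ∞) {a : ℝ}
    (hψ : ∀ x, ψ x = a) : M ψ = a := by
  have e : ψ = a • bd (fun _ : H => (1 : ℝ)) 1 (fun _ => by simp) := by
    ext x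
    rw [lp.coeFn_smul, Pi.smul_apply, bd_apply, hψ]
    simp
  rw [e, map_smul, h1 _ fun _ => rfl]
  simp

theorem mean_le {H : Type} {M : lp (fun _ : H => ℝ) ∞ →ₗ[ℝ] ℝ}
    (h1 : ∀ φ, (∀ x, φ x = 1) → M φ = 1) (h2 : ∀ φ, (∀ x, 0 ≤ φ x) → 0 ≤ M φ)
    (ψ : lp (fun _ : H => ℝ) ∞) {B : ℝ} (hψ : ∀ x, |ψ x| ≤ B) : |M ψ| ≤ B := by
  have hc : M (bd (fun _ : H => B) |B| fun _ => le_rfl) = B := mean_const h1 _ fun _ => rfl
  have a1 := h2 (bd (fun _ : H => B) |B| (fun _ => le_rfl) - ψ) fun x => by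
    rw [lp.coeFn_sub, Pi.sub_apply, bd_apply]
    linarith [(abs_le.1 (hψ x)).2]
  have a2 := h2 (bd (fun _ : H => B) |B| (fun _ => le_rfl) + ψ) fun x => by
    rw [lp.coeFn_add, Pi.add_apply, bd_apply]
    linarith [(abs_le.1 (hψ x)).1]
  rw [map_sub, hc] at a1
  rw [map_add, hc] at a2
  rw [abs_le]
  constructor <;> linarith

theorem pot_amen {g : G} (h : Undistorted g)
    (hA : IsAmenable (Subgroup.centralizer ({g} : Set G))) : ∃ φ, Pot g φ := by
  obtain ⟨l, a, hl, h0, ha, hn⟩ := h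
  obtain ⟨M, m1, m2, m3⟩ := hA
  have hc : ∀ c : G, c ∈ Subgroup.centralizer ({g} : Set G) ↔ Commute c g := fun c => by
    rw [Subgroup.mem_centralizer_singleton_iff]
    rfl
  obtain ⟨φ, h1, h2⟩ := inf_pot (zpowersHom G g) hl
    (χ := fun n => a * (Multiplicative.toAdd n : ℤ)) (fun c d => by
      rw [toAdd_mul]
      push_cast
      ring) (fun n => by
      rw [zpowersHom_apply]
      generalize Multiplicative.toAdd n = k
      obtain ⟨m, rfl | rfl⟩ := Int.eq_nat_or_neg k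
      · rw [zpow_natCast]
        exact_mod_cast hn m
      · refine le_trans ?_ (h0 _)
        push_cast
        have : (0 : ℝ) ≤ m := Nat.cast_nonneg m
        nlinarith)
  have hg : ∀ x, φ (g * x) = a + φ x := fun x => by
    have := h2 (Multiplicative.ofAdd 1) x
    simpa using this
  have hb : ∀ x (c : Subgroup.centralizer ({g} : Set G)),
      |φ ((c : G)⁻¹ * x) - φ (c : G)⁻¹| ≤ |l x| + |l x⁻¹| := fun x c => by
    rw [abs_sub_comm]
    exact h1 x _
  let F : G → lp (fun _ : Subgroup.centralizer ({g} : Set G) => ℝ) ∞ := fun x =>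
    bd (fun c => φ ((c : G)⁻¹ * x) - φ (c : G)⁻¹) _ (hb x)
  have hF : ∀ x y c, (F x - F y) c = φ ((c : G)⁻¹ * x) - φ ((c : G)⁻¹ * y) := fun x y c => by
    rw [lp.coeFn_sub, Pi.sub_apply, bd_apply, bd_apply]
    ring
  refine ⟨fun x => M (F x), fun s => ⟨|l s| + |l s⁻¹|, fun x => ?_⟩, fun d hd x y => ?_,
    fun e => ha.ne' ?_⟩
  · rw [← map_sub]
    refine mean_le m1 m2 _ fun c => ?_
    rw [hF, ← mul_assoc]
    exact h1 s _
  · dsimp only
    rw [← map_sub, ← map_sub]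
    refine m3 (⟨d, (hc _).2 hd⟩)⁻¹ _ _ fun c => ?_
    rw [hF, hF]
    simp [mul_assoc]
  · have e' : M (F g - F 1) = 0 := by
      rw [map_sub]
      exact sub_eq_zero.2 e
    rw [← e']
    refine (mean_const m1 _ fun c => ?_).symm
    rw [hF, ((hc _).1 c.2).inv_left.eq, hg, mul_one]
    ring

end Vale.Agent.P184
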