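import Vale.Agent.P184.Defs

/-! Working definition. -/

namespace Vale.Agent.P184

variable {G : Type} [Group G]

/-- A potential for `g`. -/
def Pot (g : G) (φ : G → ℝ) : Prop :=
  (∀ s, ∃ M, ∀ x, |φ x - φ (x * s)| ≤ M) ∧
    (∀ c, Commute c g → ∀ x y, φ (c * x) - φ (c * y) = φ x - φ y) ∧ φ g ≠ φ 1

end Vale.Agent.P184
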